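import Mathlib
import Vale.Agent.P129.Defs
import Vale.Agent.P129.Card

open TopologicalSpace

universe u v

namespace Vale.Agent.Results.P129.CovNull

open Vale.Agent.P129

theorem result {𝕜 : Type v} [RCLike 𝕜] {X : Type u} [NormedAddCommGroup X]
    [NormedSpace 𝕜 X] [CompleteSpace X] (hinf : ¬ FiniteDimensional 𝕜 X)
    (hd : density X < Cardinal.lift.{u} covNull ∨
      ∃ b : ℕ → ℕ, density X < Cardinal.lift.{u} (evDiff b)) :
    ∃ M : Submodule 𝕜 X, IsClosed (M : Set X) ∧ SeparableSpace (X ⧸ M) ∧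
      ¬ FiniteDimensional 𝕜 (X ⧸ M) := by
  rcases hd with hd | ⟨b, hd⟩
  · exact main_covNull hinf hd
  · exact main_evDiff hinf b hd

end Vale.Agent.Results.P129.CovNull
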